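import Vale.Agent.P088.R2.H230.W.CvH
import Vale.Agent.P088.R2.H983.Fl.Fld
import Vale.Agent.P088.R2.H942.Near6

/-!
# P088, stage 3: the certificate between the diagonal and the far zone in curved slots

`near_rob`: helper942's certificate with perturbed gradients and covectors.
`cert_near_at`: the certificate for `W = Φ(u) + e^f`, `f = u + log S(r)`, at a point of
`c0 ≤ r ≤ r1`, in the vocabulary `Geo` of helper230.
-/

open Set Filter
open scoped ContDiff Topology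

noncomputable section

namespace Vale.Agent.P088.R2.H747.N

open Vale.Agent.P088.R2.H961.GW Vale.Agent.P088.R2.H960.W Vale.Agent.P088.R2.H644.Ch
open Vale.Agent.P088.R2.H230.W
open Vale.Agent.P088.R2.H942.Iso.Near (near_cert Lp nf1 nf2 KK ub_L)
open Vale.Agent.P088.R2.H983.Fl (c1e c1h c2e c2h nf1_fl nf2_fl near_cf Cf)

universe u

/-- The first near covector, `e` and `h` unit, `s = r`. -/
def g1 {ι : Type*} [Fintype ι] (θ s : ℝ) (e h : ι → ℝ) : ι → ℝ :=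
  c1e θ (s, dd e h) • e + c1h θ (s, dd e h) • h

/-- The second near covector. -/
def g2 {ι : Type*} [Fintype ι] (θ s : ℝ) (e h : ι → ℝ) : ι → ℝ :=
  c2e θ (s, dd e h) • e + c2h θ (s, dd e h) • h

lemma eh_mem {ι : Type*} [Fintype ι] {e h : ι → ℝ} (he : dd e e = 1) (hh : dd h h = 1) :
    dd e h ∈ Icc (-1 : ℝ) 1 := by
  have := dd_cs e h
  rw [he, hh] at this
  exact abs_le.1 (abs_le_of_sq_le_sq (by linarith) (by norm_num))

lemma nn_comb {ι : Type*} [Fintype ι] {e h : ι → ℝ} {a b C : ℝ} (he : dd e e = 1)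
    (hh : dd h h = 1) (ha : |a| ≤ C) (hb : |b| ≤ C) : nn (a • e + b • h) ≤ 2 * C := by
  refine (nn_add_le _ _).trans ?_
  rw [nn_smul, nn_smul, nn_one he, nn_one hh]
  linarith

/-- The robust certificate with margin `μ` and tolerance `ε`. -/
def Rob (θ c0 r1 μ ε : ℝ) : Prop :=
    ∀ (ι : Type u) [Fintype ι] (s : ℝ), s ∈ Icc c0 r1 →
      ∀ (e h : ι → ℝ), dd e e = 1 → dd h h = 1 → ∀ (ν ℓ G : ℝ), 0 ≤ ν → 0 ≤ ℓ → 0 < G →
      ℓ ≤ 2 * Lp θ s * (1 + ε) * ν → ∀ (w₁ w₂ : ι → ℝ), 0 < dd w₁ w₁ → 0 < dd w₂ w₂ →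
      nn (w₁ - (ν • e + ℓ • h)) ≤ ε * nn w₁ → nn (w₂ - (ν • e - ℓ • h)) ≤ ε * nn w₂ →
      ∀ (φ₁ φ₂ : ι → ℝ) (k m : ℝ), nn (φ₁ - ((1 / 2 : ℝ) • e + Lp θ s • h)) ≤ ε →
      nn (φ₂ - ((1 / 2 : ℝ) • e - Lp θ s • h)) ≤ ε →
      H942.Iso.Near.kp θ s / (4 * H942.Iso.Near.gp θ s) - ε ≤ k →
      m ≤ 1 / (4 * H942.Iso.Near.gp θ s) + ε → ∀ (U V A B : ι → ℝ) (T : ℝ),
      nn (A - U) ≤ ε * nn U → nn (B - V) ≤ ε * nn V →
      4 * G * ((dd φ₁ U + dd φ₂ V) ^ 2 + k * (dd (U - V) (U - V) - dd h (U - V) ^ 2) -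
        m * dd h (U - V) ^ 2) - μ * G * (dd U U + dd V V) ≤ T →
      2 * μ * G * (dd A A + dd B B) ≤ T + TM (fl e w₁ ((4 * G) • g1 θ s e h)) w₁ A U +
        TM (fl e w₂ ((4 * G) • g2 θ s e h)) w₂ B V

/-- **The robust certificate between the diagonal and the far zone.** -/
theorem near_rob {θ c0 r1 : ℝ} (hθ : 0 < θ) (hθ2 : 1 / 2 ≤ θ ^ 2) (hc0 : 0 < c0) :
    ∃ μ > 0, ∃ ε > 0, Rob.{u} θ c0 r1 μ ε := by
  obtain ⟨μ, hμ, ε, hε, C, hC, cert⟩ := near_cert.{u} (θ := θ) (c0 := c0) (r1 := r1) hθ hθ2 hc0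
  obtain ⟨Cc, cf1, cf2⟩ := near_cf (θ := θ) (c0 := c0) (r1 := r1) hθ hθ2 hc0
  have Cc0 := cf1.C0
  obtain ⟨ε', hε', e1, e2, e3⟩ : ∃ ε' > 0, ε' ≤ ε ∧ 100 * ε' ≤ 1 ∧ 768 * (ε' * Cc) ≤ μ := by
    refine ⟨min ε (min (1 / 100) (μ / (768 * Cc))), lt_min hε (lt_min (by norm_num)
      (by positivity)), min_le_left _ _, ?_, ?_⟩
    · have := (min_le_right ε (min (1 / 100) (μ / (768 * Cc)))).trans (min_le_left _ _)
      linarith
    · have := (min_le_right ε (min (1 / 100) (μ / (768 * Cc)))).trans (min_le_right _ _)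
      have h2 := mul_le_mul_of_nonneg_right this Cc0.le
      have h3 : μ / (768 * Cc) * Cc = μ / 768 := by field_simp
      rw [h3] at h2
      linarith
  refine ⟨μ / 2, by positivity, ε', hε', ?_⟩
  intro ι _ s hs e h he hh ν ℓ G hν hℓ hG hℓν w₁ w₂ hw₁ hw₂ n₁ n₂ φ₁ φ₂ k m hφ₁ hφ₂ hk hm U V A B
    T hA hB hT
  have hLp : 0 ≤ 2 * Lp θ s * ν := by
    by_contra hneg
    have h1 : 2 * Lp θ s * (1 + ε') * ν = (1 + ε') * (2 * Lp θ s * ν) := by ring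
    rw [h1] at hℓν
    have := mul_neg_of_pos_of_neg (by linarith : 0 < 1 + ε') (not_le.1 hneg)
    linarith
  have hℓν' : ℓ ≤ 2 * Lp θ s * (1 + ε) * ν := by
    have : 2 * Lp θ s * (1 + ε') * ν ≤ 2 * Lp θ s * (1 + ε) * ν := by
      have h1 := mul_le_mul_of_nonneg_left e1 hLp
      linarith
    linarith
  have p1 := pos_of_near hw₁ (by linarith) n₁
  have p2 := pos_of_near hw₂ (by linarith) n₂
  have q1 : 0 < ν ^ 2 + ℓ ^ 2 + 2 * dd e h * ν * ℓ := by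
    have := dd_v1 he hh ν ℓ
    unfold v1 at this
    rwa [this] at p1
  have q2 : 0 < ν ^ 2 + ℓ ^ 2 - 2 * dd e h * ν * ℓ := by
    have := dd_v2 he hh ν ℓ
    unfold v2 at this
    rwa [this] at p2
  obtain ⟨-, -, ct⟩ := cert ι s hs e h he hh ν ℓ ν ℓ hν hℓ hν hℓ hℓν' hℓν' q1 q2
  have s1 : dd (φ₁ - ((1 / 2 : ℝ) • e + Lp θ s • h)) (φ₁ - ((1 / 2 : ℝ) • e + Lp θ s • h)) ≤
      ε ^ 2 := by
    rw [← nn_sq]
    exact pow_le_pow_left₀ (nn_nonneg _) (hφ₁.trans e1) 2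
  have s2 : dd (φ₂ - ((1 / 2 : ℝ) • e - Lp θ s • h)) (φ₂ - ((1 / 2 : ℝ) • e - Lp θ s • h)) ≤
      ε ^ 2 := by
    rw [← nn_sq]
    exact pow_le_pow_left₀ (nn_nonneg _) (hφ₂.trans e1) 2
  have c00 := ct φ₁ φ₂ k m s1 s2 (by linarith) (by linarith) U V
  have mem : (s, dd e h) ∈ KK c0 r1 := ⟨hs, eh_mem he hh⟩
  have z1 : nn ((4 * G) • g1 θ s e h) ≤ 4 * G * (2 * Cc) := by
    rw [nn_smul, abs_of_pos (by positivity)]
    exact mul_le_mul_of_nonneg_left (nn_comb he hh (cf1.ba _ mem) (cf1.bb _ mem)) (by positivity)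
  have z2 : nn ((4 * G) • g2 θ s e h) ≤ 4 * G * (2 * Cc) := by
    rw [nn_smul, abs_of_pos (by positivity)]
    exact mul_le_mul_of_nonneg_left (nn_comb he hh (cf2.ba _ mem) (cf2.bb _ mem)) (by positivity)
  have yy : ∀ y, y ≤ 4 * G * (2 * Cc) → 48 * (8 * (ε' * y)) ≤ 4 * G * μ := by
    intro y hy
    have h1 := mul_le_mul_of_nonneg_left hy hε'.le
    have h2 := mul_le_mul_of_nonneg_left e3 hG.le
    linarith
  rw [nf1_fl he hh, nf2_fl he hh] at c00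
  have t1 : TT (fl e (ν • e + ℓ • h) ((4 * G) • g1 θ s e h)) (ν • e + ℓ • h) U =
      4 * G * TT (fl e (v1 e h ν ℓ) (c1e θ (s, dd e h) • e + c1h θ (s, dd e h) • h))
        (ν • e + ℓ • h) U := by
    rw [fl_smul, TT_smul_left]; rfl
  have t2 : TT (fl e (ν • e - ℓ • h) ((4 * G) • g2 θ s e h)) (ν • e - ℓ • h) V =
      4 * G * TT (fl e (v2 e h ν ℓ) (c2e θ (s, dd e h) • e + c2h θ (s, dd e h) • h))
        (ν • e - ℓ • h) V := by
    rw [fl_smul, TT_smul_left]; rfl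
  have c1 : 4 * G * μ * (dd U U + dd V V) ≤
      4 * G * ((dd φ₁ U + dd φ₂ V) ^ 2 + k * (dd (U - V) (U - V) - dd h (U - V) ^ 2) -
        m * dd h (U - V) ^ 2) +
      TT (fl e (ν • e + ℓ • h) ((4 * G) • g1 θ s e h)) (ν • e + ℓ • h) U +
      TT (fl e (ν • e - ℓ • h) ((4 * G) • g2 θ s e h)) (ν • e - ℓ • h) V := by
    rw [t1, t2]
    have := mul_le_mul_of_nonneg_left c00 (by positivity : 0 ≤ 4 * G)
    linarith
  have hee : nn (e - e) ≤ ε' := by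
    rw [sub_self]
    have : nn (0 : ι → ℝ) = 0 := by unfold nn dd; simp
    rw [this]; exact hε'.le
  have w0 : 0 ≤ dd U U + dd V V := add_nonneg (dd_self_nonneg _) (dd_self_nonneg _)
  have fin := pert (T := T) (nn_one he).le (nn_one he).le hee hw₁ p1 hw₂ p2 n₁ n₂ hA hB
    (by positivity : 0 ≤ 4 * G * μ) (yy _ z1) (yy _ z2) e2 c1 (by
      have : 0 ≤ μ * G * (dd U U + dd V V) := by positivity
      linarith)
  have ab : 0 ≤ dd A A + dd B B := add_nonneg (dd_self_nonneg _) (dd_self_nonneg _)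
  have : 0 ≤ μ * G * (dd A A + dd B B) := by positivity
  linarith

end Vale.Agent.P088.R2.H747.N
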