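import Vale.Agent.P088.R2.H747.N.Cn

/-!
# P088, stage 3: the certificate between the diagonal and the far zone in curved slots (2)
-/

open Set Filter
open scoped ContDiff Topology

noncomputable section

namespace Vale.Agent.P088.R2.H747.N

open Vale.Agent.P088.R2.H961.GW Vale.Agent.P088.R2.H960.W Vale.Agent.P088.R2.H644.Ch
open Vale.Agent.P088.R2.H230.W
open Vale.Agent.P088.R2.H942.Iso.Near (near_cert Lp nf1 nf2 KK ub_L)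
open Vale.Agent.P088.R2.H983.Fl (c1e c1h c2e c2h nf1_fl nf2_fl near_cf Cf)

universe u

/-! ## Curved slots -/

section curved

variable {E : Type*} [NormedAddCommGroup E] [NormedSpace ℝ E] {ι : Type u} [Fintype ι]
  {σ τ : Sl E ι} {u r W : E → ℝ} {e h : ι → ℝ} {z : E} {ε g : ℝ}

lemma sq_diff {Y t s ε : ℝ} (hε : ε ≤ 1) (s0 : 0 ≤ s) (h1 : |Y - t| ≤ ε * s) (h2 : |t| ≤ s) :
    |Y ^ 2 - t ^ 2| ≤ 3 * ε * s ^ 2 := by
  have e1 : Y ^ 2 - t ^ 2 = (Y - t) * (Y + t) := by ring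
  have ε0 : 0 ≤ ε * s := (abs_nonneg _).trans h1
  have h3 : |Y + t| ≤ 3 * s := by
    have e2 : Y + t = (Y - t) + 2 * t := by ring
    rw [e2]
    refine (abs_add_le _ _).trans ?_
    rw [abs_mul, abs_two]
    have : ε * s ≤ 1 * s := mul_le_mul_of_nonneg_right hε s0
    linarith
  rw [e1, abs_mul]
  calc |Y - t| * |Y + t| ≤ (ε * s) * (3 * s) := mul_le_mul h1 h3 (abs_nonneg _) ε0
    _ = 3 * ε * s ^ 2 := by ring

/-- The lower bound of the main part between the diagonal and the far zone. -/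
lemma main_near {G₀ Φ₁ Φ₂ L L₁ CL c0 : ℝ} (G : Geo σ τ u r e h ε g z) (hε : ε ≤ 1 / 2)
    (G0 : 0 < G₀) (L0 : 0 ≤ L) (L2 : L ≤ CL) (hL1 : |L₁| ≤ CL) (hc0 : 0 < c0) (hr : c0 ≤ r z)
    (Φ0 : 0 ≤ Φ₁) (A B : ι → ℝ) {T : ℝ}
    (hT : T = Φ₁ * TH σ τ u z A B + Φ₂ * GA σ τ u z A B ^ 2 +
      G₀ * (TH σ τ u z A B + L * TH σ τ r z A B + L₁ * GA σ τ r z A B ^ 2) +
      G₀ * (GA σ τ u z A B + L * GA σ τ r z A B) ^ 2) :
    (Φ₁ + G₀) * g * (dd A A + dd B B) + Φ₂ * GA σ τ u z A B ^ 2 +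
      G₀ * ((GA σ τ u z A B + L * GA σ τ r z A B) ^ 2 +
        L / r z * (dd (sU σ z A - sU τ z B) (sU σ z A - sU τ z B) -
          dd h (sU σ z A - sU τ z B) ^ 2) + L₁ * dd h (sU σ z A - sU τ z B) ^ 2) -
      CL * (4 / c0 + 6) * ε * G₀ * (dd (sU σ z A) (sU σ z A) + dd (sU τ z B) (sU τ z B)) ≤ T := by
  have r0 := G.r0
  have ε0 := G.ε0
  obtain ⟨U, hU⟩ : ∃ U, U = sU σ z A := ⟨_, rfl⟩
  obtain ⟨V, hV⟩ : ∃ V, V = sU τ z B := ⟨_, rfl⟩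
  have tr := G.Tr A B
  have tu := G.Tu A B
  have yr := GAr G A B
  have hA := (up_A hε (G.nx A)).1
  have hB := (up_A hε (G.ny B)).1
  have hq := nn_hQ G.hh (sU σ z A) (sU τ z B)
  rw [← hU, ← hV] at *
  obtain ⟨Y, hY⟩ : ∃ Y, Y = GA σ τ r z A B := ⟨_, rfl⟩
  obtain ⟨X, hX⟩ : ∃ X, X = GA σ τ u z A B := ⟨_, rfl⟩
  rw [← hY] at yr
  rw [← hY, ← hX] at hT
  rw [← hY, ← hX]
  obtain ⟨s, hs⟩ : ∃ s, s = nn U + nn V := ⟨_, rfl⟩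
  obtain ⟨w, hw⟩ : ∃ w, w = dd U U + dd V V := ⟨_, rfl⟩
  have s0 : 0 ≤ s := by rw [hs]; exact add_nonneg (nn_nonneg _) (nn_nonneg _)
  have w0 : 0 ≤ w := by rw [hw]; exact add_nonneg (dd_self_nonneg _) (dd_self_nonneg _)
  have sw : s ^ 2 ≤ 2 * w := by
    rw [hs, hw, ← nn_sq, ← nn_sq]; exact sum_sq
  have AB : dd A A + dd B B ≤ 4 * w := by
    have h1 := pow_le_pow_left₀ (nn_nonneg A) hA 2
    have h2 := pow_le_pow_left₀ (nn_nonneg B) hB 2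
    rw [mul_pow, nn_sq, nn_sq] at h1 h2
    rw [hw]; linarith
  rw [← hs] at yr hq
  obtain ⟨t, ht⟩ : ∃ t, t = dd h (U - V) := ⟨_, rfl⟩
  rw [← ht] at yr hq tr ⊢
  rw [← hw]
  obtain ⟨Q, hQ⟩ : ∃ Q, Q = dd (U - V) (U - V) := ⟨_, rfl⟩
  rw [← hQ] at tr ⊢
  have CL0 : 0 ≤ CL := L0.trans L2
  -- the parts
  have p1 : (Φ₁ + G₀) * (g * (dd A A + dd B B)) ≤ (Φ₁ + G₀) * TH σ τ u z A B :=
    mul_le_mul_of_nonneg_left tu (by linarith)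
  have p2 : L / r z * (Q - t ^ 2) - CL * (4 / c0) * ε * w ≤ L * TH σ τ r z A B := by
    have h1 := mul_le_mul_of_nonneg_left (abs_le.1 tr).1 L0
    have h2 : L * (ε / r z * (dd A A + dd B B)) ≤ CL * (ε / c0 * (4 * w)) := by
      have h3 : ε / r z ≤ ε / c0 := div_le_div_of_nonneg_left ε0 hc0 hr
      have h4 : 0 ≤ dd A A + dd B B := add_nonneg (dd_self_nonneg _) (dd_self_nonneg _)
      have h5 : 0 ≤ ε / r z := div_nonneg ε0 r0.le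
      have h6 : 0 ≤ ε / c0 := div_nonneg ε0 hc0.le
      exact mul_le_mul L2 (mul_le_mul h3 AB h4 h6) (mul_nonneg h5 h4) CL0
    have e1 : L / r z * (Q - t ^ 2) = L * ((r z)⁻¹ * (Q - t ^ 2)) := by
      rw [div_eq_mul_inv]; ring
    have e2 : CL * (4 / c0) * ε * w = CL * (ε / c0 * (4 * w)) := by
      field_simp
    rw [e1, e2]
    linarith
  have p3 : L₁ * t ^ 2 - CL * 6 * ε * w ≤ L₁ * Y ^ 2 := by
    have h1 := sq_diff (by linarith) s0 yr hq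
    have h2 : |L₁ * (Y ^ 2 - t ^ 2)| ≤ CL * (6 * ε * w) := by
      rw [abs_mul]
      refine mul_le_mul hL1 (h1.trans ?_) (abs_nonneg _) CL0
      have := mul_le_mul_of_nonneg_left sw (by positivity : 0 ≤ 3 * ε)
      linarith
    have := (abs_le.1 h2).1
    linarith
  have p4 := mul_le_mul_of_nonneg_left (add_le_add p2 p3) G0.le
  rw [hT]
  linarith

lemma near_w {p a h e : ι → ℝ} {ν ℓ ε CL : ℝ} (hν : 0 ≤ ν) (hℓ : 0 ≤ ℓ) (hℓν : ℓ ≤ CL * ν)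
    (ε0 : 0 ≤ ε) (h1 : nn (a - e) ≤ ε) (h2 : nn (p - h) ≤ ε) :
    nn (ν • a + ℓ • p - (ν • e + ℓ • h)) ≤ (1 + CL) * (ε * ν) := by
  have e1 : ν • a + ℓ • p - (ν • e + ℓ • h) = ν • (a - e) + ℓ • (p - h) := by
    funext i
    simp only [Pi.add_apply, Pi.sub_apply, Pi.smul_apply, smul_eq_mul]
    ring
  rw [e1]
  refine (nn_add_le _ _).trans ?_
  rw [nn_smul, nn_smul, abs_of_nonneg hν, abs_of_nonneg hℓ]
  have a1 := mul_le_mul_of_nonneg_left h1 hν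
  have a2 := mul_le_mul_of_nonneg_left h2 hℓ
  have a3 := mul_le_mul_of_nonneg_right hℓν ε0
  linarith

lemma near_phi {p a h e : ι → ℝ} {L l ε ε₀ CL : ℝ} (hh : dd h h = 1) (L0 : 0 ≤ L) (L2 : L ≤ CL)
    (ε0 : 0 ≤ ε) (hl : |L - 2 * l| ≤ ε₀) (h1 : nn (a - e) ≤ ε) (h2 : nn (p - h) ≤ ε) :
    nn ((1 / 2 : ℝ) • (a + L • p) - ((1 / 2 : ℝ) • e + l • h)) ≤
      (1 + CL) / 2 * ε + ε₀ / 2 := by
  have e1 : (1 / 2 : ℝ) • (a + L • p) - ((1 / 2 : ℝ) • e + l • h) =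
      ((1 / 2 : ℝ) • (a - e) + (L / 2) • (p - h)) + ((L - 2 * l) / 2) • h := by
    funext i
    simp only [Pi.add_apply, Pi.sub_apply, Pi.smul_apply, smul_eq_mul]
    ring
  rw [e1]
  refine (nn_add_le _ _).trans ?_
  refine (add_le_add_left (nn_add_le _ _) _).trans ?_
  rw [nn_smul, nn_smul, nn_smul, nn_one hh, abs_of_pos (by norm_num : (0 : ℝ) < 1 / 2),
    abs_of_nonneg (by linarith : 0 ≤ L / 2), abs_div, abs_two]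
  have a1 := mul_le_mul_of_nonneg_left h2 (by linarith : 0 ≤ L / 2)
  have a2 : L / 2 * ε ≤ CL / 2 * ε := mul_le_mul_of_nonneg_right (by linarith) ε0
  linarith


lemma near_k {θ rz εn ε₀ L c0 : ℝ} (r0 : 0 < rz) (hr : c0 ≤ rz) (hεn : 0 < εn)
    (i3 : ε₀ ≤ c0 * εn) (hLp : |L - 2 * Lp θ rz| ≤ ε₀) :
    H942.Iso.Near.kp θ rz / (4 * H942.Iso.Near.gp θ rz) - εn ≤ L / (4 * rz) := by
  have gpe : H942.Iso.Near.kp θ rz / (4 * H942.Iso.Near.gp θ rz) = Lp θ rz / (2 * rz) := by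
    unfold Lp
    have h1 := r0.ne'
    field_simp
    ring
  rw [gpe]
  have h1 := (abs_le.1 hLp).1
  have h2 : (2 * Lp θ rz - ε₀) / (4 * rz) ≤ L / (4 * rz) := by
    gcongr
    linarith
  have h3 : (2 * Lp θ rz - ε₀) / (4 * rz) = Lp θ rz / (2 * rz) - ε₀ / (4 * rz) := by
    field_simp
    ring
  have h4 : ε₀ / (4 * rz) ≤ εn := by
    rw [div_le_iff₀ (by positivity)]
    have h5 := mul_le_mul_of_nonneg_left hr hεn.le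
    have h6 : 0 ≤ εn * rz := by positivity
    linarith
  linarith

lemma near_sq {σ τ : Sl E ι} {u r : E → ℝ} {e h : ι → ℝ} {z : E} {ε g : ℝ}
    (G : Geo σ τ u r e h ε g z) (L L₁ G₀ : ℝ) (A B : ι → ℝ) :
    4 * G₀ * ((dd ((1 / 2 : ℝ) • (gr σ u z + L • gr σ r z)) (sU σ z A) +
      dd ((1 / 2 : ℝ) • (gr τ u z + L • gr τ r z)) (sU τ z B)) ^ 2 +
      L / (4 * r z) * (dd (sU σ z A - sU τ z B) (sU σ z A - sU τ z B) -
        dd h (sU σ z A - sU τ z B) ^ 2) -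
      -L₁ / 4 * dd h (sU σ z A - sU τ z B) ^ 2) =
      G₀ * ((GA σ τ u z A B + L * GA σ τ r z A B) ^ 2 +
      L / r z * (dd (sU σ z A - sU τ z B) (sU σ z A - sU τ z B) -
      dd h (sU σ z A - sU τ z B) ^ 2) + L₁ * dd h (sU σ z A - sU τ z B) ^ 2) := by
  have sq : 4 * (dd ((1 / 2 : ℝ) • (gr σ u z + L • gr σ r z)) (sU σ z A) +
      dd ((1 / 2 : ℝ) • (gr τ u z + L • gr τ r z)) (sU τ z B)) ^ 2 =
      (GA σ τ u z A B + L * GA σ τ r z A B) ^ 2 := by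
    rw [GA_dd G.sσ G.sτ, GA_dd G.sσ G.sτ]
    simp only [dd_smul_left, dd_add_left]
    ring
  have r0 := G.r0
  rw [← sq]
  generalize dd (sU σ z A - sU τ z B) (sU σ z A - sU τ z B) -
        dd h (sU σ z A - sU τ z B) ^ 2 = Q
  generalize dd h (sU σ z A - sU τ z B) ^ 2 = t
  field_simp
  ring

/-- The pointwise certificate with explicit constants. -/
theorem cert_near_pt {σ τ : Sl E ι} {u r W : E → ℝ} {e h : ι → ℝ} {z : E}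
    {θ c0 r1 CL μ εn ε₀ ε g G₀ Φ₁ Φ₂ L L₁ : ℝ} {γ γ' : ι → E → ℝ} (rob : Rob.{u} θ c0 r1 μ εn)
    (hεn : 0 < εn) (CL0 : 0 ≤ CL) (hc0 : 0 < c0) (i1 : ε₀ ≤ 1 / 2)
    (i2 : ε₀ ≤ εn / (2 * (1 + CL))) (i3 : ε₀ ≤ c0 * εn)
    (i4 : CL * (4 / c0 + 6) * ε₀ ≤ μ) (i5 : ε₀ ≤ εn / 2) (ε₀0 : 0 < ε₀)
    (G : Geo σ τ u r e h ε g z) (hε : ε ≤ ε₀)
    (hr : c0 ≤ r z) (hr' : r z ≤ r1) (G0 : 0 < G₀) (L0 : 0 ≤ L) (L2 : L ≤ CL) (hL1 : |L₁| ≤ CL)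
    (hL : L ≤ 2 * Lp θ (r z) * (1 + ε₀)) (hLp : |L - 2 * Lp θ (r z)| ≤ ε₀)
    (hL' : -L₁ ≤ 1 / H942.Iso.Near.gp θ (r z) + ε₀) (Φ0 : 0 ≤ Φ₁)
    (w1 : gr σ W z = (Φ₁ + G₀) • gr σ u z + (G₀ * L) • gr σ r z)
    (w2 : gr τ W z = (Φ₁ + G₀) • gr τ u z + (G₀ * L) • gr τ r z)
    (p1 : 0 < dd (gr σ W z) (gr σ W z)) (p2 : 0 < dd (gr τ W z) (gr τ W z))
    (q1 : (1 + CL) / εn * (ε * (Φ₁ + G₀)) ≤ nn (gr σ W z))
    (q2 : (1 + CL) / εn * (ε * (Φ₁ + G₀)) ≤ nn (gr τ W z))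
    (hγ : ∀ l, γ l z = 4 * G₀ * g1 θ (r z) e h l)
    (hγ' : ∀ l, γ' l z = 4 * G₀ * g2 θ (r z) e h l) (A B : ι → ℝ)
    (hT : TH σ τ W z A B = Φ₁ * TH σ τ u z A B + Φ₂ * GA σ τ u z A B ^ 2 +
        G₀ * (TH σ τ u z A B + L * TH σ τ r z A B + L₁ * GA σ τ r z A B ^ 2) +
        G₀ * (GA σ τ u z A B + L * GA σ τ r z A B) ^ 2) :
      (2 * μ * G₀ + (Φ₁ + G₀) * g) * (dd A A + dd B B) + Φ₂ * GA σ τ u z A B ^ 2 ≤
        TH σ τ W z A B + tc σ (cf σ e W γ) W z A + tc τ (cf τ e W γ') W z B := by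
  have ε0 := G.ε0
  have r0 := G.r0
  have main := main_near (T := TH σ τ W z A B) G (hε.trans i1) G0 L0 L2 hL1 hc0 hr Φ0 A B hT
  have Lp0 : 0 ≤ Lp θ (r z) := by
    have h1 : 0 ≤ 2 * Lp θ (r z) * (1 + ε₀) := L0.trans hL
    by_contra hneg
    have := mul_neg_of_neg_of_pos (by linarith [not_le.1 hneg] : 2 * Lp θ (r z) < 0)
      (by linarith : 0 < 1 + ε₀)
    linarith
  have ν0 : 0 ≤ Φ₁ + G₀ := by linarith
  have ℓ0 : 0 ≤ G₀ * L := mul_nonneg G0.le L0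
  have ℓν : G₀ * L ≤ CL * (Φ₁ + G₀) := by
    have h1 := mul_le_mul_of_nonneg_left L2 G0.le
    have h2 := mul_nonneg CL0 Φ0
    linarith
  have ℓν' : G₀ * L ≤ 2 * Lp θ (r z) * (1 + εn) * (Φ₁ + G₀) := by
    have h1 := mul_le_mul_of_nonneg_left hL G0.le
    have h2 : 2 * Lp θ (r z) * (1 + ε₀) ≤ 2 * Lp θ (r z) * (1 + εn) := by
      refine mul_le_mul_of_nonneg_left ?_ (by positivity)
      linarith
    have h3 := mul_le_mul_of_nonneg_left h2 G0.le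
    have h4 : 0 ≤ 2 * Lp θ (r z) * (1 + εn) * Φ₁ := by positivity
    linarith
  have n1 : nn (gr σ W z - ((Φ₁ + G₀) • e + (G₀ * L) • h)) ≤ εn * nn (gr σ W z) := by
    have h1 := near_w ν0 ℓ0 ℓν ε0 G.ux G.rx
    rw [← w1] at h1
    refine h1.trans ?_
    have h2 := mul_le_mul_of_nonneg_left q1 hεn.le
    have h3 : εn * ((1 + CL) / εn * (ε * (Φ₁ + G₀))) = (1 + CL) * (ε * (Φ₁ + G₀)) := by
      field_simp
    linarith
  have hry : nn (gr τ r z - -h) ≤ ε := by rw [sub_neg_eq_add]; exact G.ry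
  have n2 : nn (gr τ W z - ((Φ₁ + G₀) • e - (G₀ * L) • h)) ≤ εn * nn (gr τ W z) := by
    have h1 := near_w ν0 ℓ0 ℓν ε0 G.uy hry
    rw [← w2, smul_neg, ← sub_eq_add_neg] at h1
    refine h1.trans ?_
    have h2 := mul_le_mul_of_nonneg_left q2 hεn.le
    have h3 : εn * ((1 + CL) / εn * (ε * (Φ₁ + G₀))) = (1 + CL) * (ε * (Φ₁ + G₀)) := by
      field_simp
    linarith
  have f0 : (1 + CL) / 2 * ε + ε₀ / 2 ≤ εn := by
    have h1 : (1 + CL) / 2 * ε ≤ (1 + CL) / 2 * (εn / (2 * (1 + CL))) :=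
      mul_le_mul_of_nonneg_left (hε.trans i2) (by positivity)
    have h2 : (1 + CL) / 2 * (εn / (2 * (1 + CL))) = εn / 4 := by
      field_simp; ring
    linarith
  have f1 := (near_phi G.hh L0 L2 ε0 hLp G.ux G.rx).trans f0
  have f2 : nn ((1 / 2 : ℝ) • (gr τ u z + L • gr τ r z) - ((1 / 2 : ℝ) • e - Lp θ (r z) • h)) ≤
      εn := by
    have h1 := near_phi (h := -h) (by have := G.hh; unfold dd at *; simpa using this)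
      L0 L2 ε0 hLp G.uy hry
    rw [smul_neg, ← sub_eq_add_neg] at h1
    exact h1.trans f0
  have k1 := near_k r0 hr hεn i3 hLp
  have m1 : -L₁ / 4 ≤ 1 / (4 * H942.Iso.Near.gp θ (r z)) + εn := by
    have h1 : 1 / (4 * H942.Iso.Near.gp θ (r z)) = 1 / H942.Iso.Near.gp θ (r z) / 4 := by
      rw [div_div, mul_comm]
    rw [h1]
    linarith
  have hA := (up_A (hε.trans i1) (G.nx A)).2
  have hB := (up_A (hε.trans i1) (G.ny B)).2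
  have e2 : 2 * ε ≤ εn := by linarith
  have hA' : nn (A - sU σ z A) ≤ εn * nn (sU σ z A) :=
    hA.trans (mul_le_mul_of_nonneg_right e2 (nn_nonneg _))
  have hB' : nn (B - sU τ z B) ≤ εn * nn (sU τ z B) :=
    hB.trans (mul_le_mul_of_nonneg_right e2 (nn_nonneg _))
  have fin := rob ι (r z) ⟨hr, hr'⟩ e h G.ee G.hh (Φ₁ + G₀) (G₀ * L) G₀ ν0 ℓ0 G0 ℓν'
    (gr σ W z) (gr τ W z) p1 p2 n1 n2 ((1 / 2 : ℝ) • (gr σ u z + L • gr σ r z))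
    ((1 / 2 : ℝ) • (gr τ u z + L • gr τ r z)) (L / (4 * r z)) (-L₁ / 4) f1 f2 k1 m1
    (sU σ z A) (sU τ z B) A B
    (TH σ τ W z A B - Φ₂ * GA σ τ u z A B ^ 2 - (Φ₁ + G₀) * g * (dd A A + dd B B)) hA' hB' (by
      have w0 : 0 ≤ dd (sU σ z A) (sU σ z A) + dd (sU τ z B) (sU τ z B) :=
        add_nonneg (dd_self_nonneg _) (dd_self_nonneg _)
      have h1 : CL * (4 / c0 + 6) * ε * G₀ * (dd (sU σ z A) (sU σ z A) +
          dd (sU τ z B) (sU τ z B)) ≤ μ * G₀ * (dd (sU σ z A) (sU σ z A) +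
          dd (sU τ z B) (sU τ z B)) := by
        refine mul_le_mul_of_nonneg_right (mul_le_mul_of_nonneg_right ?_ G0.le) w0
        exact (mul_le_mul_of_nonneg_left hε (by positivity)).trans i4
      rw [near_sq G]
      linarith)
  have c1 : (fun l => cf σ e W γ l z) = fl e (gr σ W z) ((4 * G₀) • g1 θ (r z) e h) :=
    cf_eq fun l => hγ l
  have c2 : (fun l => cf τ e W γ' l z) = fl e (gr τ W z) ((4 * G₀) • g2 θ (r z) e h) :=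
    cf_eq fun l => hγ' l
  rw [tc_TM, tc_TM, c1, c2]
  linarith

end curved

/-- **The certificate between the diagonal and the far zone in curved slots.**
`G₀ = e^f = Ψ_f = Ψ_ff`, `L = S'/S`, `L₁ = L'`, `Φ₁ = Φ'(u)`, `Φ₂ = Φ''(u)`. -/
theorem cert_near_at {E : Type*} [NormedAddCommGroup E] [NormedSpace ℝ E] {ι : Type u} [Fintype ι]
    {θ c0 r1 : ℝ} (CL : ℝ) (hθ : 0 < θ) (hθ2 : 1 / 2 ≤ θ ^ 2) (hc0 : 0 < c0) :
    ∃ μ > 0, ∃ ε₀ > 0, ∃ C > 0, ∀ (σ τ : Sl E ι) (u r W : E → ℝ) (e h : ι → ℝ) (z : E)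
      (ε g G₀ Φ₁ Φ₂ L L₁ : ℝ) (γ γ' : ι → E → ℝ), Geo σ τ u r e h ε g z → ε ≤ ε₀ →
      c0 ≤ r z → r z ≤ r1 → 0 < G₀ → 0 ≤ L → L ≤ CL → |L₁| ≤ CL →
      L ≤ 2 * Lp θ (r z) * (1 + ε₀) → |L - 2 * Lp θ (r z)| ≤ ε₀ →
      -L₁ ≤ 1 / H942.Iso.Near.gp θ (r z) + ε₀ → 0 ≤ Φ₁ →
      gr σ W z = (Φ₁ + G₀) • gr σ u z + (G₀ * L) • gr σ r z →
      gr τ W z = (Φ₁ + G₀) • gr τ u z + (G₀ * L) • gr τ r z →
      0 < dd (gr σ W z) (gr σ W z) → 0 < dd (gr τ W z) (gr τ W z) →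
      C * (ε * (Φ₁ + G₀)) ≤ nn (gr σ W z) → C * (ε * (Φ₁ + G₀)) ≤ nn (gr τ W z) →
      (∀ l, γ l z = 4 * G₀ * g1 θ (r z) e h l) → (∀ l, γ' l z = 4 * G₀ * g2 θ (r z) e h l) →
      ∀ A B : ι → ℝ,
      TH σ τ W z A B = Φ₁ * TH σ τ u z A B + Φ₂ * GA σ τ u z A B ^ 2 +
        G₀ * (TH σ τ u z A B + L * TH σ τ r z A B + L₁ * GA σ τ r z A B ^ 2) +
        G₀ * (GA σ τ u z A B + L * GA σ τ r z A B) ^ 2 →
      (2 * μ * G₀ + (Φ₁ + G₀) * g) * (dd A A + dd B B) + Φ₂ * GA σ τ u z A B ^ 2 ≤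
        TH σ τ W z A B + tc σ (cf σ e W γ) W z A + tc τ (cf τ e W γ') W z B := by
  obtain ⟨μ, hμ, εn, hεn, rob⟩ := near_rob.{u} (θ := θ) (c0 := c0) (r1 := r1) hθ hθ2 hc0
  by_cases hCL : CL < 0
  · refine ⟨1, one_pos, 1, one_pos, 1, one_pos, ?_⟩
    intro σ τ u r W e h z ε g G₀ Φ₁ Φ₂ L L₁ γ γ' G hε hr hr' G0 L0 L2
    exact absurd (L0.trans L2) (not_le.2 hCL)
  have CL0 : 0 ≤ CL := not_lt.1 hCL
  have K0 : 0 < CL * (4 / c0 + 6) + 1 := by positivity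
  obtain ⟨ε₀, ε₀0, i1, i2, i3, i4, i5⟩ : ∃ ε₀ > 0, ε₀ ≤ 1 / 2 ∧ ε₀ ≤ εn / (2 * (1 + CL)) ∧
      ε₀ ≤ c0 * εn ∧ CL * (4 / c0 + 6) * ε₀ ≤ μ ∧ ε₀ ≤ εn / 2 := by
    refine ⟨min (1 / 2) (min (εn / (2 * (1 + CL))) (min (c0 * εn)
      (min (μ / (CL * (4 / c0 + 6) + 1)) (εn / 2)))), ?_, min_le_left _ _,
      (min_le_right _ _).trans (min_le_left _ _),
      (min_le_right _ _).trans ((min_le_right _ _).trans (min_le_left _ _)), ?_,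
      (min_le_right _ _).trans ((min_le_right _ _).trans
        ((min_le_right _ _).trans (min_le_right _ _)))⟩
    · exact lt_min (by norm_num) (lt_min (by positivity) (lt_min (by positivity)
        (lt_min (by positivity) (by positivity))))
    · set x := min (1 / 2) (min (εn / (2 * (1 + CL))) (min (c0 * εn)
        (min (μ / (CL * (4 / c0 + 6) + 1)) (εn / 2))))
      have h1 : x ≤ μ / (CL * (4 / c0 + 6) + 1) := (min_le_right _ _).trans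
        ((min_le_right _ _).trans ((min_le_right _ _).trans (min_le_left _ _)))
      have h0 : 0 < x := lt_min (by norm_num) (lt_min (by positivity) (lt_min (by positivity)
        (lt_min (by positivity) (by positivity))))
      rw [le_div_iff₀ K0] at h1
      linarith
  refine ⟨μ, hμ, ε₀, ε₀0, (1 + CL) / εn, by positivity, ?_⟩
  intro σ τ u r W e h z ε g G₀ Φ₁ Φ₂ L L₁ γ γ' G hε hr hr' G0 L0 L2 hL1 hL hLp hL' Φ0 w1 w2 p1 p2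
    q1 q2 hγ hγ' A B hT
  exact cert_near_pt rob hεn CL0 hc0 i1 i2 i3 i4 i5 ε₀0 G hε hr hr' G0 L0 L2 hL1 hL hLp hL' Φ0 w1
    w2 p1 p2 q1 q2 hγ hγ' A B hT

/-! ## The composed weight -/

/-- The first near field: `γ = 4 Ψ_f (c1e(r, e·h) e + c1h(r, e·h) h)`. -/
def gN1 {E : Type*} {ι : Type u} [Fintype ι] (θ : ℝ) (D : ℕ → ℕ → ℝ → ℝ → ℝ) (S : ℝ → ℝ)
    (u r : E → ℝ) (e : ι → ℝ) (h : ι → E → ℝ) (l : ι) (z : E) : ℝ :=
  4 * D 1 0 (u z + S (r z)) (r z) * g1 θ (r z) e (fun l => h l z) l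

/-- The second near field. -/
def gN2 {E : Type*} {ι : Type u} [Fintype ι] (θ : ℝ) (D : ℕ → ℕ → ℝ → ℝ → ℝ) (S : ℝ → ℝ)
    (u r : E → ℝ) (e : ι → ℝ) (h : ι → E → ℝ) (l : ι) (z : E) : ℝ :=
  4 * D 1 0 (u z + S (r z)) (r z) * g2 θ (r z) e (fun l => h l z) l

/-- **The certificate between the diagonal and the far zone for the composed weight.** -/
theorem cert_near_wt {E : Type*} [NormedAddCommGroup E] [NormedSpace ℝ E] {ι : Type u} [Fintype ι]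
    {θ c0 r1 : ℝ} (CL : ℝ) (hθ : 0 < θ) (hθ2 : 1 / 2 ≤ θ ^ 2) (hc0 : 0 < c0) :
    ∃ μ > 0, ∃ ε₀ > 0, ∃ C > 0, ∀ (σ τ : Sl E ι) (U : Set E) (ϑ ϑ' : E → ℝ)
      (Φ Φ₁ Φ₂ S S₁ S₂ : ℝ → ℝ) (D : ℕ → ℕ → ℝ → ℝ → ℝ) (u r : E → ℝ) (e : ι → ℝ)
      (h : ι → E → ℝ) (z : E) (ε g : ℝ), σ.Ok U ϑ → τ.Ok U ϑ' →
      Wd U Φ Φ₁ Φ₂ S S₁ S₂ D u r → z ∈ U → Geo σ τ u r e (fun l => h l z) ε g z → ε ≤ ε₀ →
      c0 ≤ r z → r z ≤ r1 → 0 < D 1 0 (u z + S (r z)) (r z) →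
      D 2 0 (u z + S (r z)) (r z) = D 1 0 (u z + S (r z)) (r z) →
      D 0 1 (u z + S (r z)) (r z) = 0 → D 1 1 (u z + S (r z)) (r z) = 0 →
      D 0 2 (u z + S (r z)) (r z) = 0 → 0 ≤ S₁ (r z) → S₁ (r z) ≤ CL → |S₂ (r z)| ≤ CL →
      S₁ (r z) ≤ 2 * Lp θ (r z) * (1 + ε₀) → |S₁ (r z) - 2 * Lp θ (r z)| ≤ ε₀ →
      -S₂ (r z) ≤ 1 / H942.Iso.Near.gp θ (r z) + ε₀ → 0 ≤ Φ₁ (u z) →
      0 < dd (gr σ (wt Φ S D u r) z) (gr σ (wt Φ S D u r) z) →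
      0 < dd (gr τ (wt Φ S D u r) z) (gr τ (wt Φ S D u r) z) →
      C * (ε * (Φ₁ (u z) + D 1 0 (u z + S (r z)) (r z))) ≤ nn (gr σ (wt Φ S D u r) z) →
      C * (ε * (Φ₁ (u z) + D 1 0 (u z + S (r z)) (r z))) ≤ nn (gr τ (wt Φ S D u r) z) →
      ∀ A B : ι → ℝ,
      (2 * μ * D 1 0 (u z + S (r z)) (r z) +
          (Φ₁ (u z) + D 1 0 (u z + S (r z)) (r z)) * g) * (dd A A + dd B B) +
        Φ₂ (u z) * GA σ τ u z A B ^ 2 ≤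
        TH σ τ (wt Φ S D u r) z A B +
        tc σ (cf σ e (wt Φ S D u r) (gN1 θ D S u r e h)) (wt Φ S D u r) z A +
        tc τ (cf τ e (wt Φ S D u r) (gN2 θ D S u r e h)) (wt Φ S D u r) z B := by
  obtain ⟨μ, hμ, ε₀, hε₀, C, hC, main⟩ := cert_near_at (E := E) (ι := ι) (θ := θ) (c0 := c0)
    (r1 := r1) CL hθ hθ2 hc0
  refine ⟨μ, hμ, ε₀, hε₀, C, hC, ?_⟩
  intro σ τ U ϑ ϑ' Φ Φ₁ Φ₂ S S₁ S₂ D u r e h z ε g ok ot w hz G hε hr hr' G0 d20 d01 d11 d02 L0 L2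
    hL1 hL hLp hL' Φ0 p1 p2 q1 q2 A B
  have w1 := gr_wt ok w hz
  have w2 := gr_wt ot w hz
  rw [d01, add_zero] at w1 w2
  refine main σ τ u r (wt Φ S D u r) e (fun l => h l z) z ε g (D 1 0 (u z + S (r z)) (r z))
    (Φ₁ (u z)) (Φ₂ (u z)) (S₁ (r z)) (S₂ (r z)) _ _ G hε hr hr' G0 L0 L2 hL1 hL hLp hL' Φ0 w1 w2
    p1 p2 q1 q2 (fun _ => rfl) (fun _ => rfl) A B ?_
  rw [TH_wt ok ot w hz A B, d20, d01, d11, d02]
  ring

end Vale.Agent.P088.R2.H747.N
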